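import Crest.Agent.Helper75.OT.Defs

/-!
# Row 82 (S0109) — WP-SW : the sandwich

`sandwich` is proved here from the definitions only (no other package is used).
`discrete_potential_stability_of` is the statement `(B)` conditional on the inequality of
`weights_stability` (WP-M), taken as an explicit hypothesis.
-/

set_option autoImplicit false

noncomputable section

open MeasureTheory Filter Topology
open scoped ENNReal NNReal RealInnerProductSpace

namespace Crest.Agent.Helper75.OT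

open Crest.AnalysisR.OT

variable {d : ℕ}

namespace SW

open Classical

theorem vol_ne_zero {K : Set (E d)} (hK : Body K) : volume K ≠ 0 := by
  have h1 : 0 < volume (interior K) := isOpen_interior.measure_pos volume hK.inter
  exact (lt_of_lt_of_le h1 (measure_mono interior_subset)).ne'

theorem vol_ne_top {K : Set (E d)} (hK : Body K) : volume K ≠ ⊤ :=
  hK.compact.measure_lt_top.ne

theorem rho_finite {K : Set (E d)} (hK : Body K) : IsFiniteMeasure (uniformProbOn K) := by
  refine ⟨?_⟩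
  unfold uniformProbOn
  rw [Measure.smul_apply, Measure.restrict_apply MeasurableSet.univ, Set.univ_inter, smul_eq_mul]
  exact ENNReal.mul_lt_top (ENNReal.inv_lt_top.mpr (pos_iff_ne_zero.mpr (vol_ne_zero hK)))
    hK.compact.measure_lt_top

theorem rho_ae_mem {K : Set (E d)} (hK : Body K) : ∀ᵐ x ∂(uniformProbOn K), x ∈ K := by
  unfold uniformProbOn
  exact Measure.ae_smul_measure (ae_restrict_mem hK.compact.measurableSet) _

theorem exists_cell {K : Set (E d)} {S : Finset (E d)} (hS : S.Nonempty) (w : E d → ℝ) {x : E d}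
    (hx : x ∈ K) : ∃ c ∈ S, x ∈ Lag K S w c := by
  obtain ⟨c, hc, hmax⟩ := Finset.exists_max_image S (fun c => ⟪x, c⟫ - w c) hS
  exact ⟨c, hc, hx, hmax⟩

theorem lagPot_eq {K : Set (E d)} {S : Finset (E d)} {w : E d → ℝ} {c x : E d}
    (hc : c ∈ S) (hx : x ∈ Lag K S w c) : lagPot S w x = ⟪x, c⟫ - w c := by
  have hS : S.Nonempty := ⟨c, hc⟩
  unfold lagPot
  rw [dif_pos hS]
  apply le_antisymm
  · exact Finset.sup'_le hS _ (fun c' hc' => hx.2 c' hc')
  · exact Finset.le_sup' (fun c => ⟪x, c⟫ - w c) hc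

theorem le_lagPot {S : Finset (E d)} (w : E d → ℝ) {c : E d} (hc : c ∈ S) (x : E d) :
    ⟪x, c⟫ - w c ≤ lagPot S w x := by
  have hS : S.Nonempty := ⟨c, hc⟩
  unfold lagPot
  rw [dif_pos hS]
  exact Finset.le_sup' (fun c => ⟪x, c⟫ - w c) hc

theorem measurableSet_Lag {K : Set (E d)} (hK : Body K) (S : Finset (E d)) (w : E d → ℝ)
    (c : E d) : MeasurableSet (Lag K S w c) := by
  have h : Lag K S w c = K ∩ ⋂ c' ∈ S, {x | ⟪x, c'⟫ - w c' ≤ ⟪x, c⟫ - w c} := by
    ext x
    show (x ∈ K ∧ ∀ c' ∈ S, ⟪x, c'⟫ - w c' ≤ ⟪x, c⟫ - w c) ↔ _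
    simp
  rw [h]
  refine hK.compact.measurableSet.inter (Finset.measurableSet_biInter S (fun c' _ => ?_))
  exact measurableSet_le (by fun_prop) (by fun_prop)

theorem mem_supp {ι : Type} [Fintype ι] (y : ι → E d) (i : ι) : y i ∈ supp y := by
  unfold supp
  exact Finset.mem_image_of_mem y (Finset.mem_univ i)

theorem mergedMass_pos {ι : Type} [Fintype ι] (y : ι → E d) (m : ι → ℝ) (hm : ∀ i, 0 < m i)
    {c : E d} (hc : c ∈ supp y) : 0 < mergedMass y m c := by
  unfold supp at hc
  obtain ⟨i, -, rfl⟩ := Finset.mem_image.mp hc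
  unfold mergedMass
  have h1 : (if y i = y i then m i else 0) ≤ ∑ j, if y j = y i then m j else 0 :=
    Finset.single_le_sum (f := fun j => if y j = y i then m j else 0)
      (fun j _ => by split_ifs <;> [exact (hm j).le; exact le_rfl]) (Finset.mem_univ i)
  rw [if_pos rfl] at h1
  exact lt_of_lt_of_le (hm i) h1

/-- The cell-averaged step function of a labelled quantity `V`. -/
def avgFun (K : Set (E d)) {ι : Type} [Fintype ι] (y : ι → E d) (m : ι → ℝ) (w : E d → ℝ)
    (V : ι → ℝ) (x : E d) : ℝ :=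
  ∑ c ∈ supp y, (Lag K (supp y) w c).indicator
    (fun _ => (∑ i, if y i = c then m i * V i else 0) / mergedMass y m c) x

theorem avg_nonneg {ι : Type} [Fintype ι] (y : ι → E d) (m : ι → ℝ) (hm : ∀ i, 0 < m i)
    (V : ι → ℝ) (hV : ∀ i, 0 ≤ V i) {c : E d} (hc : c ∈ supp y) :
    0 ≤ (∑ i, if y i = c then m i * V i else 0) / mergedMass y m c := by
  refine div_nonneg (Finset.sum_nonneg (fun i _ => ?_)) (mergedMass_pos y m hm hc).le
  split_ifs
  · exact mul_nonneg (hm i).le (hV i)
  · exact le_rfl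

theorem avgFun_nonneg (K : Set (E d)) {ι : Type} [Fintype ι] (y : ι → E d) (m : ι → ℝ)
    (hm : ∀ i, 0 < m i) (w : E d → ℝ) (V : ι → ℝ) (hV : ∀ i, 0 ≤ V i) (x : E d) :
    0 ≤ avgFun K y m w V x := by
  unfold avgFun
  exact Finset.sum_nonneg (fun c hc => Set.indicator_nonneg (fun _ _ => avg_nonneg y m hm V hV hc) x)

theorem le_avgFun {K : Set (E d)} {ι : Type} [Fintype ι] (y : ι → E d) (m : ι → ℝ)
    (hm : ∀ i, 0 < m i) (w : E d → ℝ) (V : ι → ℝ) (hV : ∀ i, 0 ≤ V i) {c : E d}
    (hc : c ∈ supp y) {x : E d} (hx : x ∈ Lag K (supp y) w c) {t : ℝ}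
    (ht : ∀ i, y i = c → t ≤ V i) : t ≤ avgFun K y m w V x := by
  have hpos := mergedMass_pos y m hm hc
  have h1 : t ≤ (∑ i, if y i = c then m i * V i else 0) / mergedMass y m c := by
    rw [le_div_iff₀ hpos]
    unfold mergedMass
    rw [Finset.mul_sum]
    refine Finset.sum_le_sum (fun i _ => ?_)
    split_ifs with h
    · rw [mul_comm]
      exact mul_le_mul_of_nonneg_left (ht i h) (hm i).le
    · simp
  have h2 : (Lag K (supp y) w c).indicator
      (fun _ => (∑ i, if y i = c then m i * V i else 0) / mergedMass y m c) x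
      ≤ avgFun K y m w V x := by
    unfold avgFun
    exact Finset.single_le_sum (f := fun c => (Lag K (supp y) w c).indicator
      (fun _ => (∑ i, if y i = c then m i * V i else 0) / mergedMass y m c) x)
      (fun c' hc' => Set.indicator_nonneg (fun _ _ => avg_nonneg y m hm V hV hc') x) hc
  rw [Set.indicator_of_mem hx] at h2
  exact h1.trans h2

theorem integrable_avgFun {K : Set (E d)} (hK : Body K) {ι : Type} [Fintype ι] (y : ι → E d)
    (m : ι → ℝ) (w : E d → ℝ) (V : ι → ℝ) :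
    Integrable (avgFun K y m w V) (uniformProbOn K) := by
  have := rho_finite hK
  unfold avgFun
  refine integrable_finsetSum _ (fun c _ => ?_)
  exact (integrable_const _).indicator (measurableSet_Lag hK _ _ _)

theorem integral_avgFun {K : Set (E d)} (hK : Body K) {ι : Type} [Fintype ι] (y : ι → E d)
    (m : ι → ℝ) (hm : ∀ i, 0 < m i) (w : E d → ℝ)
    (hw : IsLagWeights K (supp y) (mergedMass y m) w) (V : ι → ℝ) :
    ∫ x, avgFun K y m w V x ∂(uniformProbOn K) = ∑ i, m i * V i := by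
  have := rho_finite hK
  unfold avgFun
  rw [integral_finsetSum _ (fun c _ =>
    (integrable_const _).indicator (measurableSet_Lag hK _ _ _))]
  have h1 : ∀ c ∈ supp y, ∫ x, (Lag K (supp y) w c).indicator
      (fun _ => (∑ i, if y i = c then m i * V i else 0) / mergedMass y m c) x ∂(uniformProbOn K)
      = ∑ i, if y i = c then m i * V i else 0 := by
    intro c hc
    rw [integral_indicator_const _ (measurableSet_Lag hK _ _ _)]
    have h2 : (uniformProbOn K).real (Lag K (supp y) w c) = mergedMass y m c := hw c hc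
    rw [h2, smul_eq_mul]
    exact mul_div_cancel₀ _ (mergedMass_pos y m hm hc).ne'
  rw [Finset.sum_congr rfl h1, Finset.sum_comm]
  refine Finset.sum_congr rfl (fun i _ => ?_)
  rw [Finset.sum_ite_eq (supp y) (y i) (fun _ => m i * V i), if_pos (mem_supp y i)]

end SW

/-- WP-SW : the sandwich. -/
theorem sandwich {K : Set (E d)} (hK : Body K) {R : ℝ} (hR : ∀ x ∈ K, ‖x‖ ≤ R)
    {ι : Type} [Fintype ι] (y z : ι → E d) (m : ι → ℝ) (hm : ∀ i, 0 < m i)
    (hsum : ∑ i, m i = 1) (wy wz : E d → ℝ)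
    (hwy : IsLagWeights K (supp y) (mergedMass y m) wy)
    (hwz : IsLagWeights K (supp z) (mergedMass z m) wz) :
    ∫ x, (lagPot (supp y) wy x - lagPot (supp z) wz x
          + ∑ j, m j * (wy (y j) - wz (z j))) ^ 2 ∂(uniformProbOn K)
      ≤ 4 * R ^ 2 * ∑ i, m i * ‖y i - z i‖ ^ 2
        + 4 * ∑ i, m i * ((wy (y i) - wz (z i)) - ∑ j, m j * (wy (y j) - wz (z j))) ^ 2 := by
  classical
  -- the index type is nonempty
  have hne : Nonempty ι := by
    by_contra h
    rw [not_nonempty_iff] at h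
    simp at hsum
  obtain ⟨i0⟩ := hne
  have hSy : (supp y).Nonempty := ⟨y i0, SW.mem_supp y i0⟩
  have hSz : (supp z).Nonempty := ⟨z i0, SW.mem_supp z i0⟩
  set δb : ℝ := ∑ j, m j * (wy (y j) - wz (z j)) with hδb
  set V : ι → ℝ := fun i => (R * ‖y i - z i‖ + |(wy (y i) - wz (z i)) - δb|) ^ 2 with hV
  have hV0 : ∀ i, 0 ≤ V i := fun i => sq_nonneg _
  -- pointwise bound on `K`
  have hpt : ∀ x ∈ K, (lagPot (supp y) wy x - lagPot (supp z) wz x + δb) ^ 2
      ≤ SW.avgFun K y m wy V x + SW.avgFun K z m wz V x := by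
    intro x hx
    obtain ⟨c, hc, hxc⟩ := SW.exists_cell hSy wy hx
    obtain ⟨c', hc', hxc'⟩ := SW.exists_cell hSz wz hx
    have hinner : ∀ i, |⟪x, y i - z i⟫| ≤ R * ‖y i - z i‖ := fun i =>
      (abs_real_inner_le_norm _ _).trans
        (mul_le_mul_of_nonneg_right (hR x hx) (norm_nonneg _))
    -- upper bound on the `y`-cell
    have hup : ∀ i, y i = c → lagPot (supp y) wy x - lagPot (supp z) wz x + δb
        ≤ R * ‖y i - z i‖ + |(wy (y i) - wz (z i)) - δb| := by
      intro i hi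
      have e1 : lagPot (supp y) wy x = ⟪x, y i⟫ - wy (y i) := by
        rw [hi]; exact SW.lagPot_eq hc hxc
      have e2 : ⟪x, z i⟫ - wz (z i) ≤ lagPot (supp z) wz x := SW.le_lagPot wz (SW.mem_supp z i) x
      have e3 : ⟪x, y i - z i⟫ = ⟪x, y i⟫ - ⟪x, z i⟫ := inner_sub_right _ _ _
      have e4 := (abs_le.mp (hinner i)).2
      have e5 := neg_abs_le ((wy (y i) - wz (z i)) - δb)
      linarith
    -- lower bound on the `z`-cell
    have hlow : ∀ j, z j = c' → -(R * ‖y j - z j‖ + |(wy (y j) - wz (z j)) - δb|)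
        ≤ lagPot (supp y) wy x - lagPot (supp z) wz x + δb := by
      intro j hj
      have e1 : lagPot (supp z) wz x = ⟪x, z j⟫ - wz (z j) := by
        rw [hj]; exact SW.lagPot_eq hc' hxc'
      have e2 : ⟪x, y j⟫ - wy (y j) ≤ lagPot (supp y) wy x := SW.le_lagPot wy (SW.mem_supp y j) x
      have e3 : ⟪x, y j - z j⟫ = ⟪x, y j⟫ - ⟪x, z j⟫ := inner_sub_right _ _ _
      have e4 := (abs_le.mp (hinner j)).1
      have e5 := le_abs_self ((wy (y j) - wz (z j)) - δb)
      linarith
    have hAy := SW.avgFun_nonneg K y m hm wy V hV0 x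
    have hAz := SW.avgFun_nonneg K z m hm wz V hV0 x
    rcases le_total 0 (lagPot (supp y) wy x - lagPot (supp z) wz x + δb) with h0 | h0
    · have : (lagPot (supp y) wy x - lagPot (supp z) wz x + δb) ^ 2 ≤ SW.avgFun K y m wy V x := by
        refine SW.le_avgFun y m hm wy V hV0 hc hxc (fun i hi => ?_)
        exact pow_le_pow_left₀ h0 (hup i hi) 2
      linarith
    · have : (lagPot (supp y) wy x - lagPot (supp z) wz x + δb) ^ 2 ≤ SW.avgFun K z m wz V x := by
        refine SW.le_avgFun z m hm wz V hV0 hc' hxc' (fun j hj => ?_)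
        have h1 := hlow j hj
        have h2 : 0 ≤ -(lagPot (supp y) wy x - lagPot (supp z) wz x + δb) := by linarith
        have h3 : -(lagPot (supp y) wy x - lagPot (supp z) wz x + δb)
            ≤ R * ‖y j - z j‖ + |(wy (y j) - wz (z j)) - δb| := by linarith
        have h4 := pow_le_pow_left₀ h2 h3 2
        rw [neg_sq] at h4
        exact h4
      linarith
  -- integrate
  have hint : ∫ x, (lagPot (supp y) wy x - lagPot (supp z) wz x + δb) ^ 2 ∂(uniformProbOn K)
      ≤ ∫ x, (SW.avgFun K y m wy V x + SW.avgFun K z m wz V x) ∂(uniformProbOn K) := by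
    refine integral_mono_of_nonneg (Eventually.of_forall (fun x => sq_nonneg _))
      ((SW.integrable_avgFun hK y m wy V).add (SW.integrable_avgFun hK z m wz V)) ?_
    filter_upwards [SW.rho_ae_mem hK] with x hx using hpt x hx
  rw [integral_add (SW.integrable_avgFun hK y m wy V) (SW.integrable_avgFun hK z m wz V),
    SW.integral_avgFun hK y m hm wy hwy V, SW.integral_avgFun hK z m hm wz hwz V] at hint
  -- final algebra
  have hfin : ∀ i, m i * V i ≤ 2 * R ^ 2 * (m i * ‖y i - z i‖ ^ 2)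
      + 2 * (m i * ((wy (y i) - wz (z i)) - δb) ^ 2) := by
    intro i
    have h1 : V i ≤ 2 * R ^ 2 * ‖y i - z i‖ ^ 2 + 2 * ((wy (y i) - wz (z i)) - δb) ^ 2 := by
      simp only [hV]
      have := sq_abs ((wy (y i) - wz (z i)) - δb)
      nlinarith [sq_nonneg (R * ‖y i - z i‖ - |(wy (y i) - wz (z i)) - δb|)]
    have := mul_le_mul_of_nonneg_left h1 (hm i).le
    linarith
  have hsumfin : ∑ i, m i * V i ≤ 2 * R ^ 2 * ∑ i, m i * ‖y i - z i‖ ^ 2
      + 2 * ∑ i, m i * ((wy (y i) - wz (z i)) - δb) ^ 2 := by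
    rw [Finset.mul_sum, Finset.mul_sum, ← Finset.sum_add_distrib]
    exact Finset.sum_le_sum (fun i _ => hfin i)
  linarith

/-- Stability of the potentials for discrete targets, `(B)`, from the inequality of
`weights_stability` (WP-M) given as a hypothesis. -/
theorem discrete_potential_stability_of {K : Set (E d)} (hK : Body K) {R : ℝ}
    (hR : ∀ x ∈ K, ‖x‖ ≤ R) {ι : Type} [Fintype ι] (y z : ι → E d) (m : ι → ℝ)
    (hm : ∀ i, 0 < m i) (hsum : ∑ i, m i = 1) (wy wz : E d → ℝ)
    (hwy : IsLagWeights K (supp y) (mergedMass y m) wy)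
    (hwz : IsLagWeights K (supp z) (mergedMass z m) wz)
    (hWS : ∑ i, m i * ((wy (y i) - wz (z i)) - ∑ j, m j * (wy (y j) - wz (z j))) ^ 2
      ≤ 1100 * R ^ 2 * ∑ i, m i * ‖y i - z i‖ ^ 2) :
    ∃ κ : ℝ, ∫ x, (lagPot (supp y) wy x - lagPot (supp z) wz x - κ) ^ 2 ∂(uniformProbOn K)
      ≤ 5000 * R ^ 2 * ∑ i, m i * ‖y i - z i‖ ^ 2 := by
  refine ⟨-∑ j, m j * (wy (y j) - wz (z j)), ?_⟩
  have h1 := sandwich hK hR y z m hm hsum wy wz hwy hwz
  have h2 : 0 ≤ R ^ 2 * ∑ i, m i * ‖y i - z i‖ ^ 2 :=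
    mul_nonneg (sq_nonneg R) (Finset.sum_nonneg (fun i _ => mul_nonneg (hm i).le (sq_nonneg _)))
  simp only [sub_neg_eq_add]
  nlinarith

end Crest.Agent.Helper75.OT
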